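/-
R288/LS: the linearised soft minimum (optimistic exponential weights) over a list of actions.
-/
import Mathlib

set_option autoImplicit false

namespace Crest.Agent.R288

open Finset

variable {ι : Type}

/-- Soft minimum. -/
noncomputable def smin (η : ℝ) (A : List ι) (x : ι → ℝ) : ℝ :=
  -(1 / η) * Real.log (A.map fun a => Real.exp (-η * x a)).sum

/-- Gibbs weights. -/
noncomputable def gibbs (η : ℝ) (A : List ι) (x : ι → ℝ) (a : ι) : ℝ :=
  Real.exp (-η * x a) / (A.map fun b => Real.exp (-η * x b)).sum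

/-- Cumulated costs of the rounds `< m`. -/
def cum {R : Type} [AddCommMonoid R] (q : ℕ → ι → R) (m : ℕ) (a : ι) : R := ∑ k ∈ range m, q k a

/-- The value of round `m` (rounds start at `0`) on the cost vector `v`, given the history `q`:
the linearisation at `q (m-1)` of `v ↦ smin (cum q m + v) - smin (cum q m)`. -/
noncomputable def Phi (η : ℝ) (A : List ι) (q : ℕ → ι → ℝ) : ℕ → (ι → ℝ) → ℝ
  | 0, v => (A.map v).sum / A.length
  | m + 1, v => smin η A (fun a => cum q (m + 1) a + q m a) - smin η A (cum q (m + 1)) +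
      (A.map fun a => gibbs η A (fun b => cum q (m + 1) b + q m b) a * (v a - q m a)).sum

section
variable {η : ℝ} {A : List ι} {x y v v' : ι → ℝ} {q q' : ℕ → ι → ℝ}

theorem ls_const (A : List ι) (c : ℝ) : (A.map fun _ => c).sum = A.length * c := by
  simp

theorem ls_congr {f g : ι → ℝ} (h : ∀ a ∈ A, f a = g a) : (A.map f).sum = (A.map g).sum := by
  rw [List.map_congr_left h]

theorem ls_len_pos (hA : A ≠ []) : (0 : ℝ) < A.length :=
  Nat.cast_pos.2 (List.length_pos_iff.2 hA)

theorem ls_pos (hA : A ≠ []) {f : ι → ℝ} (h : ∀ a, 0 < f a) : 0 < (A.map f).sum :=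
  List.sum_pos _ (by simpa using fun a _ => h a) (by simpa using hA)

/-- affine functions under a probability vector -/
theorem ls_affine {p : ι → ℝ} (h1 : (A.map p).sum = 1) (c d e : ℝ) (f g : ι → ℝ) :
    (A.map fun a => p a * (c + d * f a + e * g a)).sum =
      c + d * (A.map fun a => p a * f a).sum + e * (A.map fun a => p a * g a).sum := by
  have h2 : (fun a => p a * (c + d * f a + e * g a)) =
      fun a => (c * p a + d * (p a * f a)) + e * (p a * g a) := by
    funext a
    ring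
  rw [h2, List.sum_map_add, List.sum_map_add, List.sum_map_mul_left, List.sum_map_mul_left,
    List.sum_map_mul_left, h1, mul_one]

theorem ls_avg_mono {p f g : ι → ℝ} (h0 : ∀ a, 0 ≤ p a) (h : ∀ a ∈ A, f a ≤ g a) :
    (A.map fun a => p a * f a).sum ≤ (A.map fun a => p a * g a).sum :=
  List.sum_le_sum fun a ha => mul_le_mul_of_nonneg_left (h a ha) (h0 a)

theorem ls_avg_const {p : ι → ℝ} (h1 : (A.map p).sum = 1) (c : ℝ) :
    (A.map fun a => p a * c).sum = c := by
  rw [List.sum_map_mul_right, h1, one_mul]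

theorem ls_avg_le {p f : ι → ℝ} (h0 : ∀ a, 0 ≤ p a) (h1 : (A.map p).sum = 1) {c : ℝ}
    (h : ∀ a ∈ A, f a ≤ c) : (A.map fun a => p a * f a).sum ≤ c :=
  (ls_avg_mono h0 h).trans (ls_avg_const h1 c).le

theorem ls_le_avg {p f : ι → ℝ} (h0 : ∀ a, 0 ≤ p a) (h1 : (A.map p).sum = 1) {c : ℝ}
    (h : ∀ a ∈ A, c ≤ f a) : c ≤ (A.map fun a => p a * f a).sum :=
  (ls_avg_const h1 c).ge.trans (ls_avg_mono h0 h)

theorem ls_avg_sub (p f g : ι → ℝ) : (A.map fun a => p a * (f a - g a)).sum =
    (A.map fun a => p a * f a).sum - (A.map fun a => p a * g a).sum := by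
  rw [eq_sub_iff_add_eq, ← List.sum_map_add]
  exact ls_congr fun a _ => by ring

/-- Jensen -/
theorem ls_jensen {p : ι → ℝ} (h0 : ∀ a, 0 ≤ p a) (h1 : (A.map p).sum = 1) (η : ℝ) (f : ι → ℝ) :
    η * (A.map fun a => p a * f a).sum ≤
      Real.log (A.map fun a => p a * Real.exp (η * f a)).sum := by
  set μ := (A.map fun a => p a * f a).sum with hμ
  have h2 : Real.exp (η * μ) ≤ (A.map fun a => p a * Real.exp (η * f a)).sum := by
    have h3 := ls_affine h1 (Real.exp (η * μ) * (1 - η * μ)) (Real.exp (η * μ) * η) 0 f f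
    refine le_trans (le_of_eq ?_) (h3.ge.trans (ls_avg_mono h0 fun a _ => ?_))
    · ring
    · have h4 := Real.add_one_le_exp (η * f a - η * μ)
      have h5 := mul_le_mul_of_nonneg_left h4 (Real.exp_pos (η * μ)).le
      rw [← Real.exp_add, add_sub_cancel] at h5
      linarith
  exact (Real.le_log_iff_exp_le ((Real.exp_pos _).trans_le h2)).2 h2

/-- second order upper bound -/
theorem ls_upper {p : ι → ℝ} (h0 : ∀ a, 0 ≤ p a) (h1 : (A.map p).sum = 1) {f : ι → ℝ} {μ V : ℝ}
    (hμ : (A.map fun a => p a * f a).sum = μ) (h : ∀ a ∈ A, |η * (f a - μ)| ≤ 1)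
    (hV : (A.map fun a => p a * (f a - μ) ^ 2).sum ≤ V) :
    Real.log (A.map fun a => p a * Real.exp (η * f a)).sum ≤ η * μ + η ^ 2 * V := by
  have hpos : 0 < (A.map fun a => p a * Real.exp (η * f a)).sum := by
    have h2 := ls_affine h1 (Real.exp (η * μ) * (1 - η * μ)) (Real.exp (η * μ) * η) 0 f f
    rw [hμ] at h2
    refine lt_of_lt_of_le ?_ (h2.ge.trans (ls_avg_mono h0 fun a _ => ?_))
    · have := Real.exp_pos (η * μ)
      linarith
    · have h4 := Real.add_one_le_exp (η * f a - η * μ)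
      have h5 := mul_le_mul_of_nonneg_left h4 (Real.exp_pos (η * μ)).le
      rw [← Real.exp_add, add_sub_cancel] at h5
      linarith
  rw [Real.log_le_iff_le_exp hpos]
  have h3 := ls_affine h1 (Real.exp (η * μ) * (1 - η * μ)) (Real.exp (η * μ) * η)
    (Real.exp (η * μ) * η ^ 2) f fun a => (f a - μ) ^ 2
  rw [hμ] at h3
  refine (ls_avg_mono h0 fun a ha => ?_).trans (h3.le.trans ?_)
  · have h4 := (abs_le.1 (Real.abs_exp_sub_one_sub_id_le (h a ha))).2
    have h5 := mul_le_mul_of_nonneg_left h4 (Real.exp_pos (η * μ)).le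
    have h6 : Real.exp (η * μ) * Real.exp (η * (f a - μ)) = Real.exp (η * f a) := by
      rw [← Real.exp_add]
      congr 1
      ring
    nlinarith
  · have h4 := Real.add_one_le_exp (η ^ 2 * V)
    have h5 := mul_le_mul_of_nonneg_left h4 (Real.exp_pos (η * μ)).le
    have h6 := mul_le_mul_of_nonneg_left hV
      (mul_nonneg (Real.exp_pos (η * μ)).le (sq_nonneg η))
    rw [Real.exp_add]
    nlinarith

theorem ls_le_smin (hη : 0 < η) (hA : A ≠ []) {t : ℝ}
    (h : (A.map fun a => Real.exp (-η * x a)).sum ≤ Real.exp (-η * t)) : t ≤ smin η A x := by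
  have h1 := (Real.log_le_iff_le_exp (ls_pos hA fun a => Real.exp_pos _)).2 h
  unfold smin
  rw [neg_mul, one_div, inv_mul_eq_div, le_neg, div_le_iff₀ hη]
  linarith

theorem smin_le (hη : 0 < η) {a : ι} (ha : a ∈ A) : smin η A x ≤ x a := by
  have h1 : Real.exp (-η * x a) ≤ (A.map fun a => Real.exp (-η * x a)).sum :=
    List.single_le_sum (by simpa using fun b _ => (Real.exp_pos _).le) _ (List.mem_map_of_mem ha)
  have h2 := (Real.le_log_iff_exp_le ((Real.exp_pos _).trans_le h1)).2 h1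
  unfold smin
  rw [neg_mul, one_div, inv_mul_eq_div, neg_le, le_div_iff₀ hη]
  linarith

theorem le_smin (hη : 0 < η) (hA : A ≠ []) {lo : ℝ} (h : ∀ a ∈ A, lo ≤ x a) :
    lo - Real.log A.length / η ≤ smin η A x := by
  refine ls_le_smin hη hA ?_
  have e : -η * (lo - Real.log A.length / η) = Real.log A.length + -η * lo := by
    field_simp
    ring
  rw [e, Real.exp_add, Real.exp_log (ls_len_pos hA), ← ls_const]
  exact List.sum_le_sum fun a ha => Real.exp_le_exp.2 (by nlinarith [h a ha])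

/-- All actions but the first are handicapped by `G` (use `log (1 + u) ≤ u`). -/
theorem le_smin_cons (hη : 0 < η) {a₀ : ι} {lo G : ℝ} (h0 : lo ≤ x a₀) (h : ∀ a ∈ A, lo + G ≤ x a) :
    lo - A.length * Real.exp (-η * G) / η ≤ smin η (a₀ :: A) x := by
  refine ls_le_smin hη (List.cons_ne_nil _ _) ?_
  have e : -η * (lo - A.length * Real.exp (-η * G) / η) =
      -η * lo + A.length * Real.exp (-η * G) := by
    field_simp
    ring
  have h1 : (A.map fun a => Real.exp (-η * x a)).sum ≤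
      A.length * (Real.exp (-η * lo) * Real.exp (-η * G)) := by
    rw [← ls_const, ← Real.exp_add]
    exact List.sum_le_sum fun a ha => Real.exp_le_exp.2 (by nlinarith [h a ha])
  have h2 : Real.exp (-η * x a₀) ≤ Real.exp (-η * lo) := Real.exp_le_exp.2 (by nlinarith)
  have h3 := mul_le_mul_of_nonneg_left (Real.add_one_le_exp (A.length * Real.exp (-η * G)))
    (Real.exp_pos (-η * lo)).le
  rw [e, Real.exp_add, List.map_cons, List.sum_cons]
  linarith

theorem smin_mono (hη : 0 < η) (hA : A ≠ []) {ξ : ℝ} (h : ∀ a ∈ A, x a ≤ y a + ξ) :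
    smin η A x ≤ smin η A y + ξ := by
  rw [← sub_le_iff_le_add]
  refine ls_le_smin hη hA ?_
  have e : -η * (smin η A x - ξ) =
      η * ξ + Real.log (A.map fun a => Real.exp (-η * x a)).sum := by
    unfold smin
    field_simp
    ring
  rw [e, Real.exp_add, Real.exp_log (ls_pos hA fun a => Real.exp_pos _), ← List.sum_map_mul_left]
  refine List.sum_le_sum fun a ha => ?_
  rw [← Real.exp_add]
  exact Real.exp_le_exp.2 (by nlinarith [h a ha])

theorem abs_smin_sub_le (hη : 0 < η) (hA : A ≠ []) {ξ : ℝ} (h : ∀ a ∈ A, |x a - y a| ≤ ξ) :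
    |smin η A x - smin η A y| ≤ ξ := by
  have h1 := smin_mono hη hA (x := x) (y := y) (ξ := ξ) fun a ha => by
    linarith [(abs_le.1 (h a ha)).2]
  have h2 := smin_mono hη hA (x := y) (y := x) (ξ := ξ) fun a ha => by
    linarith [(abs_le.1 (h a ha)).1]
  exact abs_le.2 ⟨by linarith, by linarith⟩

theorem gibbs_nonneg (a : ι) : 0 ≤ gibbs η A x a := by
  exact div_nonneg (Real.exp_pos _).le
    (List.sum_nonneg (by simpa using fun b _ => (Real.exp_pos _).le))

theorem sum_gibbs (hA : A ≠ []) : (A.map (gibbs η A x)).sum = 1 := by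
  unfold gibbs
  simp only [div_eq_mul_inv]
  rw [List.sum_map_mul_right, mul_inv_cancel₀ (ls_pos hA fun a => Real.exp_pos _).ne']

/-- Change of reference point. -/
theorem smin_eq_ref (hη : 0 < η) (hA : A ≠ []) :
    smin η A y = smin η A x -
      (1 / η) * Real.log (A.map fun a => gibbs η A x a * Real.exp (-η * (y a - x a))).sum := by
  have hx := ls_pos hA fun a => Real.exp_pos (-η * x a)
  have hy := ls_pos hA fun a => Real.exp_pos (-η * y a)
  have e : (A.map fun a => gibbs η A x a * Real.exp (-η * (y a - x a))).sum =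
      (A.map fun a => Real.exp (-η * y a)).sum / (A.map fun a => Real.exp (-η * x a)).sum := by
    rw [div_eq_mul_inv, ← List.sum_map_mul_right]
    refine ls_congr fun a _ => ?_
    rw [gibbs, div_mul_eq_mul_div, ← Real.exp_add, div_eq_mul_inv]
    congr 2
    ring
  rw [e, Real.log_div hy.ne' hx.ne']
  unfold smin
  ring

theorem ls_smin_ref (hη : 0 < η) (hA : A ≠ []) (x y : ι → ℝ) :
    η * (smin η A x - smin η A y) =
      Real.log (A.map fun a => gibbs η A x a * Real.exp (η * (x a - y a))).sum := by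
  rw [smin_eq_ref (x := x) (y := y) hη hA]
  have e : (fun a => gibbs η A x a * Real.exp (-η * (y a - x a))) =
      fun a => gibbs η A x a * Real.exp (η * (x a - y a)) := by
    funext a
    congr 2
    ring
  rw [e]
  field_simp
  ring

/-- concavity -/
theorem ls_tangent (hη : 0 < η) (hA : A ≠ []) (x y : ι → ℝ) :
    (A.map fun a => gibbs η A x a * (x a - y a)).sum ≤ smin η A x - smin η A y := by
  refine le_of_mul_le_mul_left ?_ hη
  rw [ls_smin_ref hη hA]
  exact ls_jensen gibbs_nonneg (sum_gibbs hA) η fun a => x a - y a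

theorem ls_smin_congr (h : ∀ a ∈ A, x a = y a) : smin η A x = smin η A y := by
  unfold smin
  rw [ls_congr (f := fun a => Real.exp (-η * x a)) (g := fun a => Real.exp (-η * y a))
    fun a ha => by rw [h a ha]]

theorem ls_gibbs_congr (h : ∀ a ∈ A, x a = y a) {a : ι} (ha : a ∈ A) :
    gibbs η A x a = gibbs η A y a := by
  unfold gibbs
  rw [ls_congr (f := fun a => Real.exp (-η * x a)) (g := fun a => Real.exp (-η * y a))
    fun a ha => by rw [h a ha], h a ha]

theorem ls_Phi_zero (v : ι → ℝ) :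
    Phi η A q 0 v = (A.map fun a => (A.length : ℝ)⁻¹ * v a).sum := by
  rw [List.sum_map_mul_left, Phi, div_eq_inv_mul]

theorem ls_unif (hA : A ≠ []) : (A.map fun _ => (A.length : ℝ)⁻¹).sum = 1 := by
  rw [ls_const, mul_inv_cancel₀ (ls_len_pos hA).ne']

theorem ls_unif_nonneg (_a : ι) : 0 ≤ (A.length : ℝ)⁻¹ := by positivity

theorem ls_cum_succ (q : ℕ → ι → ℝ) (m : ℕ) : cum q (m + 1) = fun a => cum q m a + q m a :=
  funext fun _ => Finset.sum_range_succ _ _

theorem Phi_congr (m : ℕ) (hq : ∀ k < m, ∀ a ∈ A, q k a = q' k a) (hv : ∀ a ∈ A, v a = v' a) :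
    Phi η A q m v = Phi η A q' m v' := by
  rcases m with _ | m
  · simp only [Phi]
    rw [ls_congr hv]
  · have h1 : ∀ a ∈ A, cum q (m + 1) a = cum q' (m + 1) a := fun a ha =>
      Finset.sum_congr rfl fun k hk => hq k (Finset.mem_range.1 hk) a ha
    have h2 : ∀ a ∈ A, cum q (m + 1) a + q m a = cum q' (m + 1) a + q' m a := fun a ha => by
      rw [h1 a ha, hq m (Nat.lt_succ_self m) a ha]
    simp only [Phi]
    rw [ls_smin_congr h1, ls_smin_congr h2]
    congr 1
    refine ls_congr fun a ha => ?_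
    rw [ls_gibbs_congr h2 ha, hv a ha, hq m (Nat.lt_succ_self m) a ha]

theorem Phi_mono (hA : A ≠ []) (m : ℕ) {ξ : ℝ} (h : ∀ a ∈ A, v a ≤ v' a + ξ) :
    Phi η A q m v ≤ Phi η A q m v' + ξ := by
  have key : ∀ p : ι → ℝ, (∀ a, 0 ≤ p a) → (A.map p).sum = 1 →
      (A.map fun a => p a * v a).sum ≤ (A.map fun a => p a * v' a).sum + ξ := by
    intro p h0 h1
    rw [← sub_le_iff_le_add', ← ls_avg_sub]
    exact ls_avg_le h0 h1 fun a ha => by linarith [h a ha]
  rcases m with _ | m
  · rw [ls_Phi_zero, ls_Phi_zero]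
    exact key _ ls_unif_nonneg (ls_unif hA)
  · simp only [Phi, ls_avg_sub]
    linarith [key _ (gibbs_nonneg (η := η) (A := A) (x := fun b => cum q (m + 1) b + q m b))
      (sum_gibbs hA)]

/-- `smin (c + q) - smin c ≥ ⟨gibbs (c + q), q⟩` (Jensen). -/
theorem le_Phi (hη : 0 < η) (hA : A ≠ []) (m : ℕ) {lo : ℝ} (h : ∀ a ∈ A, lo ≤ v a) :
    lo ≤ Phi η A q m v := by
  rcases m with _ | m
  · rw [ls_Phi_zero]
    exact ls_le_avg ls_unif_nonneg (ls_unif hA) h
  · have h1 := ls_tangent hη hA (fun a => cum q (m + 1) a + q m a) (cum q (m + 1))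
    simp only [add_sub_cancel_left] at h1
    have h2 := ls_le_avg (gibbs_nonneg (η := η) (A := A) (x := fun b => cum q (m + 1) b + q m b))
      (sum_gibbs hA) h
    simp only [Phi, ls_avg_sub]
    linarith

/-- `smin (c + q) - smin c - ⟨p, q⟩ = (1/η) log E_p exp (η (q - E_p q)) ≤ η g²` by
`exp u ≤ 1 + u + u²` for `|u| ≤ 1`. -/
theorem Phi_le (hη : 0 < η) (hA : A ≠ []) (m : ℕ) {hi g : ℝ} (h : ∀ a ∈ A, v a ≤ hi)
    (hg : ∀ k < m, ∀ a ∈ A, ∀ b ∈ A, q k a ≤ q k b + g) (hηg : η * g ≤ 1) :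
    Phi η A q m v ≤ hi + η * g ^ 2 := by
  rcases m with _ | m
  · rw [ls_Phi_zero]
    have := ls_avg_le ls_unif_nonneg (ls_unif hA) h
    nlinarith [mul_nonneg hη.le (sq_nonneg g)]
  · have h0 := gibbs_nonneg (η := η) (A := A) (x := fun b => cum q (m + 1) b + q m b)
    have h1 := sum_gibbs (η := η) (x := fun b => cum q (m + 1) b + q m b) hA
    have h2 := ls_smin_ref hη hA (fun a => cum q (m + 1) a + q m a) (cum q (m + 1))
    simp only [add_sub_cancel_left] at h2
    have h3 : ∀ a ∈ A, |q m a - (A.map fun a =>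
        gibbs η A (fun b => cum q (m + 1) b + q m b) a * q m a).sum| ≤ g := by
      intro a ha
      have h4 := ls_avg_le h0 h1 fun b hb => hg m (Nat.lt_succ_self m) b hb a ha
      have h5 := ls_le_avg h0 h1 (c := q m a - g) (f := q m) fun b hb => by
        linarith [hg m (Nat.lt_succ_self m) a ha b hb]
      exact abs_le.2 ⟨by linarith, by linarith⟩
    have h4 := ls_upper (η := η) h0 h1 rfl (V := g ^ 2) (fun a ha => by
      rw [abs_mul, abs_of_pos hη]
      exact (mul_le_mul_of_nonneg_left (h3 a ha) hη.le).trans hηg)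
      (ls_avg_le h0 h1 fun a ha => sq_le_sq' (abs_le.1 (h3 a ha)).1 (abs_le.1 (h3 a ha)).2)
    have h5 := ls_avg_le h0 h1 h
    simp only [Phi, ls_avg_sub]
    rw [← h2] at h4
    have h6 := le_of_mul_le_mul_left (a := η) (h4.trans_eq
      (by rw [sq η, mul_assoc, ← mul_add])) hη
    linarith

theorem abs_Phi_le (hη : 0 < η) (hA : A ≠ []) (m : ℕ) {R : ℝ} (h : ∀ a ∈ A, |v a| ≤ R)
    (hq : ∀ k < m, ∀ a ∈ A, |q k a| ≤ R) : |Phi η A q m v| ≤ 3 * R := by
  obtain ⟨a₀, ha₀⟩ := List.exists_mem_of_ne_nil A hA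
  have hR : 0 ≤ R := (abs_nonneg _).trans (h a₀ ha₀)
  rcases m with _ | m
  · have h1 := le_Phi (q := q) hη hA 0 fun a ha => (abs_le.1 (h a ha)).1
    have h2 := ls_avg_le ls_unif_nonneg (ls_unif hA) fun a ha => (abs_le.1 (h a ha)).2
    rw [← ls_Phi_zero (η := η) (q := q)] at h2
    exact abs_le.2 ⟨by linarith, by linarith⟩
  · have h1 := le_Phi (q := q) hη hA (m + 1) fun a ha => (abs_le.1 (h a ha)).1
    have h2 := smin_mono hη hA (x := fun a => cum q (m + 1) a + q m a) (y := cum q (m + 1)) (ξ := R)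
      fun a ha => by linarith [(abs_le.1 (hq m (Nat.lt_succ_self m) a ha)).2]
    have h3 := ls_avg_le (gibbs_nonneg (η := η) (A := A) (x := fun b => cum q (m + 1) b + q m b))
      (sum_gibbs hA) (f := fun a => v a - q m a) (c := 2 * R) fun a ha => by
        linarith [(abs_le.1 (hq m (Nat.lt_succ_self m) a ha)).1, (abs_le.1 (h a ha)).2]
    refine abs_le.2 ⟨by linarith, ?_⟩
    simp only [Phi]
    linarith

theorem ls_U_le (hη : 0 < η) (hA : A ≠ []) (m : ℕ) :
    smin η A (cum q (m + 1)) - smin η A (cum q m) ≤ Phi η A q m (q m) := by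
  rcases m with _ | m
  · have h1 := ls_tangent hη hA (cum q 0) (cum q 1)
    have h2 : (A.map fun a => gibbs η A (cum q 0) a * (cum q 0 a - cum q 1 a)).sum =
        -1 * (A.map fun a => (A.length : ℝ)⁻¹ * q 0 a).sum := by
      rw [← List.sum_map_mul_left]
      refine ls_congr fun a _ => ?_
      simp [gibbs, cum]
    rw [ls_Phi_zero]
    linarith
  · have h1 := ls_tangent hη hA (fun a => cum q (m + 1) a + q m a) (cum q (m + 1 + 1))
    have e : ∀ a, cum q (m + 1) a + q m a - cum q (m + 1 + 1) a = q m a - q (m + 1) a := by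
      intro a
      rw [ls_cum_succ q (m + 1)]
      ring
    simp only [e, ls_avg_sub] at h1
    simp only [Phi, ls_avg_sub]
    linarith

/-- With `U c v = smin (c + v) - smin c`:
`Phi (m+1) (q m) = U (cum (m+1)) (q m) ≤ U (cum m) (q m) ≤ Phi m (q m)`; the first inequality is
Cauchy-Schwarz (`(E e^{-ηq})² ≤ E e^{-2ηq}` under the weights `e^{-η cum m}`), the second is Jensen. -/
theorem Phi_succ_le (hη : 0 < η) (hA : A ≠ []) (m : ℕ) :
    Phi η A q (m + 1) (q m) ≤ Phi η A q m (q m) := by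
  refine le_trans ?_ (ls_U_le hη hA m)
  have h1 := ls_tangent hη hA (cum q (m + 1)) fun a => cum q (m + 1) a + q m a
  have h2 := ls_tangent hη hA (cum q (m + 1)) (cum q m)
  have e1 : ∀ a, cum q (m + 1) a - (cum q (m + 1) a + q m a) = 0 - q m a := fun a => by ring
  have e2 : ∀ a, cum q (m + 1) a - cum q m a = q m a := fun a => by
    rw [ls_cum_succ q m]
    ring
  simp only [e1, ls_avg_sub, mul_zero, ls_const] at h1
  simp only [e2] at h2
  simp only [Phi, ls_avg_sub]
  linarith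

theorem ls_regret_step (hη : 0 < η) (hA : A ≠ []) (m : ℕ) {g ξ : ℝ} (hg0 : 0 ≤ g)
    (hg : ∀ a ∈ A, ∀ b ∈ A, q m a ≤ q m b + g)
    (hg' : ∀ a ∈ A, ∀ b ∈ A, q (m + 1) a ≤ q (m + 1) b + g) (hηg : 2 * η * g ≤ 1)
    (hξ : ∀ a ∈ A, q (m + 1) a ≤ q m a + ξ) :
    Phi η A q (m + 1) (q (m + 1)) ≤ smin η A (cum q (m + 1 + 1)) - smin η A (cum q (m + 1)) +
      2 * η * g * (Phi η A q m (q m) - Phi η A q (m + 1) (q (m + 1)) + ξ) := by
  have h0 := gibbs_nonneg (η := η) (A := A) (x := fun b => cum q (m + 1) b + q m b)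
  have h1 := sum_gibbs (η := η) (x := fun b => cum q (m + 1) b + q m b) hA
  have h2 := ls_smin_ref hη hA (fun a => cum q (m + 1) a + q m a) (cum q (m + 1 + 1))
  have e : ∀ a, cum q (m + 1) a + q m a - cum q (m + 1 + 1) a = q m a - q (m + 1) a := by
    intro a
    rw [ls_cum_succ q (m + 1)]
    ring
  simp only [e] at h2
  obtain ⟨μ, hμ⟩ : ∃ μ, (A.map fun a =>
    gibbs η A (fun b => cum q (m + 1) b + q m b) a * (q m a - q (m + 1) a)).sum = μ := ⟨_, rfl⟩
  have h3 : ∀ a ∈ A, |q m a - q (m + 1) a - μ| ≤ 2 * g := by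
    intro a ha
    have h4 := ls_avg_le h0 h1 (f := fun b => q m b - q (m + 1) b)
      (c := q m a - q (m + 1) a + 2 * g) fun b hb => by linarith [hg b hb a ha, hg' a ha b hb]
    have h5 := ls_le_avg h0 h1 (f := fun b => q m b - q (m + 1) b)
      (c := q m a - q (m + 1) a - 2 * g) fun b hb => by linarith [hg a ha b hb, hg' b hb a ha]
    rw [hμ] at h4 h5
    exact abs_le.2 ⟨by linarith, by linarith⟩
  have h4 := ls_upper (η := η) h0 h1 hμ (V := 2 * g * (μ + ξ)) (fun a ha => by
    rw [abs_mul, abs_of_pos hη]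
    have := mul_le_mul_of_nonneg_left (h3 a ha) hη.le
    linarith) (by
    have h5 := ls_affine h1 (2 * g * ξ + (μ + ξ) * μ) (2 * g - (μ + ξ)) 0
      (fun a => q m a - q (m + 1) a) (fun a => q m a - q (m + 1) a)
    rw [hμ] at h5
    refine (ls_avg_mono h0 fun a ha => ?_).trans (h5.le.trans (le_of_eq (by ring)))
    have h6 := mul_le_mul_of_nonneg_left (abs_le.1 (h3 a ha)).2
      (show 0 ≤ q m a - q (m + 1) a + ξ by linarith [hξ a ha])
    nlinarith)
  rw [← h2] at h4
  have h5 := le_of_mul_le_mul_left (a := η) (h4.trans_eq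
    (by rw [sq η, mul_assoc, ← mul_add])) hη
  have h6 := Phi_succ_le (q := q) hη hA m
  have h7 : Phi η A q (m + 1) (q m) - Phi η A q (m + 1) (q (m + 1)) = μ := by
    rw [← hμ]
    simp only [Phi, ls_avg_sub]
    ring
  have h8 : Phi η A q (m + 1) (q (m + 1)) = smin η A (fun a => cum q (m + 1) a + q m a) -
      smin η A (cum q (m + 1)) - μ := by
    rw [← hμ]
    simp only [Phi, ls_avg_sub]
    ring
  have h9 := mul_le_mul_of_nonneg_left
    (show μ + ξ ≤ Phi η A q m (q m) - Phi η A q (m + 1) (q (m + 1)) + ξ by linarith)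
    (show 0 ≤ 2 * η * g by positivity)
  linarith

/-- **Regret.**  `∑ U (cum m) (q m)` telescopes to `smin (cum M) - smin 0 ≤ cum M a + log |A| / η`;
`Phi 0 (q 0) ≤ U 0 (q 0) + g`; for `m ≥ 1`, with `δ = q (m-1) - q m ≥ -ξ` (oscillation `≤ 2 g`) and
`p` the Gibbs weights, `Phi m (q m) - U (cum m) (q m) = (1/η) log E_p e^{ηδ} - E_p δ ≤
2 η g (E_p δ + ξ)` and `E_p δ = Phi m (q (m-1)) - Phi m (q m) ≤ Phi (m-1) (q (m-1)) - Phi m (q m)`
telescopes to at most `hi - lo`. -/
theorem Phi_regret (hη : 0 < η) (M : ℕ) {a : ι} (ha : a ∈ A) {g ξ lo hi : ℝ} (hg0 : 0 ≤ g)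
    (hξ0 : 0 ≤ ξ) (hlh : lo ≤ hi)
    (hg : ∀ k < M, ∀ a ∈ A, ∀ b ∈ A, q k a ≤ q k b + g) (hηg : 2 * η * g ≤ 1)
    (hξ : ∀ k, k + 1 < M → ∀ a ∈ A, q (k + 1) a ≤ q k a + ξ)
    (hlo : ∀ k < M, ∀ a ∈ A, lo ≤ q k a) (hhi : ∀ k < M, ∀ a ∈ A, q k a ≤ hi) :
    ∑ m ∈ range M, Phi η A q m (q m) ≤ ∑ m ∈ range M, q m a + Real.log A.length / η + g +
      2 * η * g * (M * ξ + (hi - lo)) := by
  have hA : A ≠ [] := List.ne_nil_of_mem ha
  have hlog : 0 ≤ Real.log A.length / η := div_nonneg (Real.log_natCast_nonneg _) hη.le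
  have hc : 0 ≤ 2 * η * g := by positivity
  rcases M with _ | N
  · have := mul_nonneg hc (sub_nonneg.2 hlh)
    simp only [range_zero, sum_empty, Nat.cast_zero, zero_mul, zero_add]
    linarith
  have key : ∀ n, n ≤ N → ∑ m ∈ range (n + 1), Phi η A q m (q m) ≤
      smin η A (cum q (n + 1)) - smin η A (cum q 0) + g +
        2 * η * g * (n * ξ + (Phi η A q 0 (q 0) - Phi η A q n (q n))) := by
    intro n
    induction n with
    | zero =>
      intro _
      have h1 := smin_mono hη hA (x := cum q 0) (y := cum q 1) (ξ := g - Phi η A q 0 (q 0))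
        fun b hb => by
          have h2 := ls_avg_le ls_unif_nonneg (ls_unif hA) fun c hc =>
            hg 0 (Nat.succ_pos N) c hc b hb
          rw [← ls_Phi_zero (η := η) (q := q)] at h2
          simp only [cum, range_zero, sum_empty, range_one, sum_singleton]
          linarith
      simp only [zero_add, range_one, sum_singleton, Nat.cast_zero, zero_mul, sub_self, mul_zero]
      linarith
    | succ n ih =>
      intro hn
      have h1 := ih (by omega)
      have h2 := ls_regret_step hη hA n hg0 (hg n (by omega)) (hg (n + 1) (by omega)) hηg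
        (hξ n (by omega))
      rw [sum_range_succ]
      push_cast
      linarith
  have h1 := key N le_rfl
  have h2 : smin η A (cum q (N + 1)) ≤ ∑ m ∈ range (N + 1), q m a := smin_le hη ha
  have h3 := le_smin hη hA (x := cum q 0) (lo := 0) fun b _ => by simp [cum]
  have h4 := ls_avg_le ls_unif_nonneg (ls_unif hA) (hhi 0 (Nat.succ_pos N))
  rw [← ls_Phi_zero (η := η) (q := q)] at h4
  have h5 := le_Phi (q := q) hη hA N (hlo N (Nat.lt_succ_self N))
  have h6 := mul_le_mul_of_nonneg_left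
    (show N * ξ + (Phi η A q 0 (q 0) - Phi η A q N (q N)) ≤ (N + 1 : ℕ) * ξ + (hi - lo) by
      push_cast
      linarith) hc
  linarith

end

end Crest.Agent.R288
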